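import Vale.Agent.P114.Bridge

open MeasureTheory
open scoped ENNReal

namespace Vale.Agent.Results.P114.EntropyRate

/-- The composition `φ_{i₁} ∘ ⋯ ∘ φ_{iₙ}` of the maps `φ_i(x) = r_i x + t_i` along a word. -/
def comp {Λ : Type*} (r t : Λ → ℝ) : List Λ → ℝ → ℝ
  | [] => fun x => x
  | i :: w => fun x => r i * comp r t w x + t i

open Classical in
/-- `P(G_n = g)`: the total weight of the words of length `n` whose composed map is `g`. -/
noncomputable def lawG {Λ : Type*} [Fintype Λ] (r t p : Λ → ℝ) (n : ℕ) (g : ℝ → ℝ) : ℝ :=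
  ∑ w : Fin n → Λ, if comp r t (List.ofFn w) = g then ∏ j, p (w j) else 0

open Classical in
/-- The Shannon entropy `H(G_n)` with base 2 logarithms. -/
noncomputable def entG {Λ : Type*} [Fintype Λ] (r t p : Λ → ℝ) (n : ℕ) : ℝ :=
  -∑ g ∈ Finset.univ.image (fun w : Fin n → Λ => comp r t (List.ofFn w)),
    lawG r t p n g * Real.logb 2 (lawG r t p n g)

/-- The random walk entropy rate `inf_{n ≥ 1} H(G_n) / n`. -/
noncomputable def hRW {Λ : Type*} [Fintype Λ] (r t p : Λ → ℝ) : ℝ :=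
  ⨅ n : ℕ, entG r t p (n + 1) / ((n : ℝ) + 1)

/-- The Lyapunov exponent `-∑ p_i log₂ |r_i|`. -/
noncomputable def lyap {Λ : Type*} [Fintype Λ] (r p : Λ → ℝ) : ℝ :=
  -∑ i, p i * Real.logb 2 |r i|

/-- `μ = ∑ p_i (φ_i)_* μ`. -/
def IsSelfSimilar {Λ : Type*} [Fintype Λ] (r t p : Λ → ℝ) (μ : Measure ℝ) : Prop :=
  μ = ∑ i, ENNReal.ofReal (p i) • μ.map (fun x => r i * x + t i)

/-- The lower Hausdorff dimension of a measure. -/
noncomputable def dimMeasure (μ : Measure ℝ) : ℝ≥0∞ :=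
  ⨅ (E : Set ℝ) (_ : MeasurableSet E) (_ : 0 < μ E), dimH E

theorem comp_eq {Λ : Type*} [Fintype Λ] (F : Vale.Agent.P114.IFS Λ) (w : List Λ) :
    comp F.r F.t w = fun x => F.rw w * x + F.tw w := by
  induction w with
  | nil => funext x; simp [comp]
  | cons i w ih => funext x; simp [comp, ih]; ring

theorem result {Λ : Type*} [Fintype Λ] [Nonempty Λ] (r t p : Λ → ℝ)
    (hr : ∀ i, 0 < |r i| ∧ |r i| < 1) (hp : ∀ i, 0 < p i) (hsum : ∑ i, p i = 1) :
    (∃! μ : Measure ℝ, IsProbabilityMeasure μ ∧ IsSelfSimilar r t p μ) ∧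
    ∀ μ : Measure ℝ, IsProbabilityMeasure μ → IsSelfSimilar r t p μ →
      dimMeasure μ = ENNReal.ofReal (min 1 (hRW r t p / lyap r p)) := by
  let F : Vale.Agent.P114.IFS Λ :=
    ⟨r, t, p, fun i => abs_pos.1 (hr i).1, fun i => (hr i).2, hp, hsum⟩
  refine ⟨F.existsUnique_selfSim, fun μ hμ hs => ?_⟩
  have hG : ∀ n, entG r t p n = F.HG n / Real.log 2 := fun n => by
    rw [F.HG_eq_image n (comp r t) (comp_eq F)]
    rfl
  have h1 : hRW r t p = F.hh / Real.log 2 := by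
    rw [F.hh_div_log_two]
    exact iInf_congr fun n => by rw [hG]
  have h2 : lyap r p = F.chi / Real.log 2 := F.chi_div_log_two.symm
  have h3 : hRW r t p / lyap r p = F.hh / F.chi := by
    rw [h1, h2, div_div_div_cancel_right₀ (Real.log_pos one_lt_two).ne']
  rw [h3]
  exact F.dim_eq hs

end Vale.Agent.Results.P114.EntropyRate
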